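import Vale.Agent.P076.R2.H831V.Spec2

/-!
# P076 : anisotropic Sobolev spaces
-/

open MeasureTheory Complex FourierTransform Filter Topology Set
open scoped ENNReal NNReal

namespace Vale.Agent.P076.R2.H599

open Vale.Agent.P076 Vale.Agent.P076.H791 Vale.Agent.P076.R2 Vale.Agent.P076.R2.H45
open Vale.Agent.P076.R2.H831 Vale.Agent.P076.R2.H831V

variable {n : ℕ}

/-- the radial majorant -/
noncomputable def ph (b ρ : ℝ) : ℝ := if ρ < 4 then 1 else (ρ / 4) ^ (-b)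

lemma ph_meas (b : ℝ) : Measurable (ph b) := by
  unfold ph
  exact Measurable.ite measurableSet_Iio measurable_const
    ((measurable_id.div_const 4).pow_const (-b))

lemma nrm_meas : Measurable (nrm : (Fin n → ℝ) → ℝ) := by
  unfold nrm
  fun_prop

lemma ph_int {b : ℝ} (hb : 1 < b) : ∫⁻ ρ in Ioi (0 : ℝ), ENNReal.ofReal (ph b ρ) < ⊤ := by
  rw [← Ioc_union_Ioi_eq_Ioi (show (0 : ℝ) ≤ 4 by norm_num)]
  refine (lintegral_union_le _ _ _).trans_lt (ENNReal.add_lt_top.2 ⟨?_, ?_⟩)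
  · refine (lintegral_mono_ae (g := fun _ => (1 : ℝ≥0∞)) ?_).trans_lt ?_
    · refine (ae_restrict_iff' measurableSet_Ioc).2 (Eventually.of_forall fun ρ hρ => ?_)
      have : ph b ρ ≤ 1 := by
        unfold ph
        split_ifs with h
        · exact le_rfl
        · have : ρ = 4 := le_antisymm hρ.2 (not_lt.1 h)
          rw [this, div_self (by norm_num), Real.one_rpow]
      simpa using ENNReal.ofReal_le_ofReal this
    · simp
  · have h1 : IntegrableOn (fun ρ : ℝ => (4 : ℝ) ^ b * ρ ^ (-b)) (Ioi 4) :=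
      (integrableOn_Ioi_rpow_of_lt (by linarith) (by norm_num)).const_mul _
    refine lt_of_eq_of_lt ?_ h1.lintegral_lt_top
    refine setLIntegral_congr_fun measurableSet_Ioi fun ρ hρ => ?_
    have h4 : (4 : ℝ) < ρ := hρ
    have : ph b ρ = 4 ^ b * ρ ^ (-b) := by
      unfold ph
      rw [if_neg (not_lt.2 h4.le), Real.div_rpow (by linarith) (by norm_num),
        Real.rpow_neg (by norm_num : (0:ℝ) ≤ 4), div_inv_eq_mul, mul_comm]
    simp only [this]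

/-- the density of the tube `j` of the shell `k` -/
noncomputable def th (ε : ℝ) (k j : ℕ) : ℝ :=
  min ((2 : ℝ) ^ (-(((k : ℝ) - 1) * (1 / 2 + ε)))) ((2 : ℝ) ^ (-(((j : ℝ) - 1) * (1 + ε))))

lemma th_nonneg (ε : ℝ) (k j : ℕ) : 0 ≤ th ε k j := by
  unfold th
  positivity

lemma th_le {ε : ℝ} (hε : 0 < ε) (k j : ℕ) :
    th ε k j * max ((2 : ℝ) ^ j) ((2 : ℝ) ^ ((k : ℝ) / 2)) ≤
      (2 : ℝ) ^ (1 + ε) * (2 : ℝ) ^ (-((k : ℝ) * ε / 2)) := by
  have h2 : (1 : ℝ) ≤ 2 := by norm_num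
  have hk : (0 : ℝ) ≤ k := Nat.cast_nonneg k
  rcases le_total ((2 : ℝ) ^ j) ((2 : ℝ) ^ ((k : ℝ) / 2)) with h | h
  · rw [max_eq_right h]
    calc th ε k j * (2 : ℝ) ^ ((k : ℝ) / 2)
        ≤ (2 : ℝ) ^ (-(((k : ℝ) - 1) * (1 / 2 + ε))) * (2 : ℝ) ^ ((k : ℝ) / 2) :=
          mul_le_mul_of_nonneg_right (min_le_left _ _) (by positivity)
      _ = (2 : ℝ) ^ (-(((k : ℝ) - 1) * (1 / 2 + ε)) + (k : ℝ) / 2) :=
          (Real.rpow_add (by norm_num) _ _).symm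
      _ ≤ (2 : ℝ) ^ ((1 + ε) + -((k : ℝ) * ε / 2)) := by
          refine Real.rpow_le_rpow_of_exponent_le h2 ?_
          nlinarith [mul_nonneg hk hε.le]
      _ = _ := Real.rpow_add (by norm_num) _ _
  · rw [max_eq_left h]
    have hj : (k : ℝ) / 2 ≤ j := by
      rw [← Real.rpow_natCast] at h
      exact (Real.rpow_le_rpow_left_iff (by norm_num)).1 h
    calc th ε k j * (2 : ℝ) ^ j
        ≤ (2 : ℝ) ^ (-(((j : ℝ) - 1) * (1 + ε))) * (2 : ℝ) ^ j :=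
          mul_le_mul_of_nonneg_right (min_le_right _ _) (by positivity)
      _ = (2 : ℝ) ^ (-(((j : ℝ) - 1) * (1 + ε)) + (j : ℝ)) := by
          rw [Real.rpow_add (by norm_num), Real.rpow_natCast]
      _ ≤ (2 : ℝ) ^ ((1 + ε) + -((k : ℝ) * ε / 2)) := by
          refine Real.rpow_le_rpow_of_exponent_le h2 ?_
          nlinarith [mul_le_mul_of_nonneg_right hj hε.le]
      _ = _ := Real.rpow_add (by norm_num) _ _

/-- the tubes -/
noncomputable def tT (e : Fin n → ℝ) (ε : ℝ) (k : ℕ) : Finset ((Fin n → ℝ) × ℝ × ℝ) := by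
  classical
  exact (Finset.range k).image fun j => (e, (2 : ℝ) ^ j, th ε k j)

lemma mem_tT {e : Fin n → ℝ} {ε : ℝ} {k : ℕ} {p : (Fin n → ℝ) × ℝ × ℝ} :
    p ∈ tT e ε k ↔ ∃ j < k, p = (e, (2 : ℝ) ^ j, th ε k j) := by
  classical
  unfold tT
  simp only [Finset.mem_image, Finset.mem_range]
  constructor
  · rintro ⟨j, hj, rfl⟩
    exact ⟨j, hj, rfl⟩
  · rintro ⟨j, hj, rfl⟩
    exact ⟨j, hj, rfl⟩

lemma sum_tT (e : Fin n → ℝ) (ε : ℝ) (k : ℕ) (F : (Fin n → ℝ) × ℝ × ℝ → ℝ) :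
    ∑ p ∈ tT e ε k, F p = ∑ j ∈ Finset.range k, F (e, (2 : ℝ) ^ j, th ε k j) := by
  classical
  unfold tT
  refine Finset.sum_image fun i _ j _ h => ?_
  have h2 : (2 : ℝ) ^ i = 2 ^ j := (Prod.ext_iff.1 (Prod.ext_iff.1 h).2).1
  exact pow_right_injective₀ (by norm_num) (by norm_num) h2

lemma summ {ε : ℝ} (hε : 0 < ε) (e : Fin n → ℝ) : Summable fun k : ℕ => √((k : ℝ) + 1) *
      ∑ p ∈ tT e ε k, p.2.2 * max p.2.1 ((2 : ℝ) ^ ((k : ℝ) / 2)) := by
  set q : ℝ := (2 : ℝ) ^ (-(ε / 2)) with hq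
  have hq0 : 0 < q := by positivity
  have hq1 : q < 1 := Real.rpow_lt_one_of_one_lt_of_neg (by norm_num) (by linarith)
  have hqn : ‖q‖ < 1 := by rwa [Real.norm_eq_abs, abs_of_pos hq0]
  have s2 := summable_pow_mul_geometric_of_norm_lt_one 2 hqn
  have s1 := summable_pow_mul_geometric_of_norm_lt_one 1 hqn
  refine Summable.of_nonneg_of_le (fun k => ?_) (fun k => ?_)
    ((s2.add s1).mul_left ((2 : ℝ) ^ (1 + ε)))
  · refine mul_nonneg (Real.sqrt_nonneg _) (Finset.sum_nonneg fun p hp => ?_)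
    obtain ⟨j, -, rfl⟩ := mem_tT.1 hp
    exact mul_nonneg (th_nonneg _ _ _) (by positivity)
  · rw [sum_tT]
    have hk : (0 : ℝ) ≤ k := Nat.cast_nonneg k
    have e1 : (2 : ℝ) ^ (-((k : ℝ) * ε / 2)) = q ^ k := by
      rw [hq, ← Real.rpow_natCast, ← Real.rpow_mul (by norm_num)]
      congr 1
      ring
    have e2 : √((k : ℝ) + 1) ≤ (k : ℝ) + 1 := by
      rw [Real.sqrt_le_left (by positivity)]
      nlinarith
    have e3 : ∑ j ∈ Finset.range k, th ε k j * max ((2 : ℝ) ^ j) ((2 : ℝ) ^ ((k : ℝ) / 2)) ≤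
        k * ((2 : ℝ) ^ (1 + ε) * q ^ k) := by
      refine (Finset.sum_le_card_nsmul _ _ ((2 : ℝ) ^ (1 + ε) * q ^ k) fun j _ => ?_).trans ?_
      · rw [← e1]
        exact th_le hε k j
      · simp
    calc √((k : ℝ) + 1) * ∑ j ∈ Finset.range k, th ε k j *
          max ((2 : ℝ) ^ j) ((2 : ℝ) ^ ((k : ℝ) / 2))
        ≤ ((k : ℝ) + 1) * (k * ((2 : ℝ) ^ (1 + ε) * q ^ k)) := by
          refine mul_le_mul e2 e3 (Finset.sum_nonneg fun j _ => ?_) (by positivity)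
          exact mul_nonneg (th_nonneg _ _ _) (by positivity)
      _ = _ := by ring

/-- Pythagoras -/
lemma pyth {e : Fin n → ℝ} (he : nrm e = 1) (ξ : Fin n → ℝ) :
    nrm ξ ^ 2 = |∑ i, ξ i * e i| ^ 2 + nrm (ξ - (∑ i, ξ i * e i) • e) ^ 2 := by
  have h1 : ∑ i, e i ^ 2 = 1 := by
    have := congrArg (· ^ 2) he
    simpa [nrm, Real.sq_sqrt (Finset.sum_nonneg fun i _ => sq_nonneg (e i))] using this
  unfold nrm
  rw [Real.sq_sqrt (Finset.sum_nonneg fun i _ => sq_nonneg _),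
    Real.sq_sqrt (Finset.sum_nonneg fun i _ => sq_nonneg _), sq_abs]
  set c := ∑ i, ξ i * e i with hc
  have h2 : ∑ i, (ξ - c • e) i ^ 2 =
      ∑ i, (ξ i ^ 2 - (2 * c) * (ξ i * e i) + c ^ 2 * e i ^ 2) := by
    refine Finset.sum_congr rfl fun i _ => ?_
    simp only [Pi.sub_apply, Pi.smul_apply, smul_eq_mul]
    ring
  rw [h2, Finset.sum_add_distrib, Finset.sum_sub_distrib, ← Finset.mul_sum, ← Finset.mul_sum, h1,
    ← hc]
  ring

lemma nrm_nonneg' (ξ : Fin n → ℝ) : 0 ≤ nrm ξ := Real.sqrt_nonneg _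

/-- the weight -/
noncomputable def W (e : Fin n → ℝ) (ε : ℝ) (ξ : Fin n → ℝ) : ℝ :=
  1 + |∑ i, ξ i * e i| ^ (1 / 2 + ε) + nrm (ξ - (∑ i, ξ i * e i) • e) ^ (1 + ε)

lemma W_one (e : Fin n → ℝ) (ε : ℝ) (ξ : Fin n → ℝ) : 1 ≤ W e ε ξ := by
  unfold W
  have h1 : 0 ≤ |∑ i, ξ i * e i| ^ (1 / 2 + ε) := Real.rpow_nonneg (abs_nonneg _) _
  have h2 : 0 ≤ nrm (ξ - (∑ i, ξ i * e i) • e) ^ (1 + ε) := Real.rpow_nonneg (nrm_nonneg' _) _
  linarith

lemma W_m (e : Fin n → ℝ) (ε : ℝ) (ξ : Fin n → ℝ) : |∑ i, ξ i * e i| ^ (1 / 2 + ε) ≤ W e ε ξ := by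
  unfold W
  have h2 : 0 ≤ nrm (ξ - (∑ i, ξ i * e i) • e) ^ (1 + ε) := Real.rpow_nonneg (nrm_nonneg' _) _
  linarith

lemma W_r (e : Fin n → ℝ) (ε : ℝ) (ξ : Fin n → ℝ) :
    nrm (ξ - (∑ i, ξ i * e i) • e) ^ (1 + ε) ≤ W e ε ξ := by
  unfold W
  have h1 : 0 ≤ |∑ i, ξ i * e i| ^ (1 / 2 + ε) := Real.rpow_nonneg (abs_nonneg _) _
  linarith

lemma W_meas (e : Fin n → ℝ) (ε : ℝ) : Measurable (W e ε) := by
  have h1 : Measurable fun ξ : Fin n → ℝ => |∑ i, ξ i * e i| := by fun_prop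
  have h2 : Measurable fun ξ : Fin n → ℝ => nrm (ξ - (∑ i, ξ i * e i) • e) :=
    nrm_meas.comp (by fun_prop)
  exact (measurable_const.add (h1.pow_const _)).add (h2.pow_const _)

/-- the pointwise bound -/
lemma ptw {e : Fin n → ℝ} {ε : ℝ} (he : nrm e = 1) (hε : 0 < ε) (ξ : Fin n → ℝ) :
    (W e ε ξ)⁻¹ ≤ ph (1 + ε) (nrm ξ) ∨
      ∃ k, ∃ p ∈ tT e ε k, ξ ∈ tube k p ∧ (W e ε ξ)⁻¹ ≤ p.2.2 := by
  have hW := W_one e ε ξ
  have hW0 : 0 < W e ε ξ := by linarith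
  set r := nrm (ξ - (∑ i, ξ i * e i) • e) with hr
  set m := |∑ i, ξ i * e i| with hm
  have hr0 : 0 ≤ r := nrm_nonneg' _
  have hm0 : 0 ≤ m := abs_nonneg _
  by_cases h4 : nrm ξ < 4
  · left
    unfold ph
    rw [if_pos h4]
    exact inv_le_one_of_one_le₀ hW
  have h4' : 4 ≤ nrm ξ := not_lt.1 h4
  obtain ⟨k, hk1, hk2⟩ := exists_nat_pow_near (show 1 ≤ nrm ξ by linarith)
    (show (1 : ℝ) < 2 by norm_num)
  have hk : 1 ≤ k := by
    by_contra hcon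
    have : k = 0 := by omega
    rw [this] at hk2
    norm_num at hk2
    linarith
  obtain ⟨l, rfl⟩ : ∃ l, k = l + 1 := ⟨k - 1, by omega⟩
  by_cases hA : (2 : ℝ) ^ l < r
  · left
    unfold ph
    rw [if_neg h4]
    have h5 : nrm ξ / 4 ≤ r := by
      have : (2 : ℝ) ^ (l + 1 + 1) = 4 * 2 ^ l := by ring
      linarith
    have h6 : (nrm ξ / 4) ^ (1 + ε) ≤ W e ε ξ :=
      (Real.rpow_le_rpow (by linarith) h5 (by linarith)).trans (W_r e ε ξ)
    rw [Real.rpow_neg (by linarith)]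
    exact inv_anti₀ (Real.rpow_pos_of_pos (by linarith) _) h6
  · right
    have hA' : r ≤ 2 ^ l := not_lt.1 hA
    have hmm : (2 : ℝ) ^ l ≤ m := by
      have h5 := pyth he ξ
      rw [← hr, ← hm] at h5
      have h6 : ((2 : ℝ) ^ (l + 1)) ^ 2 ≤ nrm ξ ^ 2 := pow_le_pow_left₀ (by positivity) hk1 2
      have h7 : r ^ 2 ≤ ((2 : ℝ) ^ l) ^ 2 := pow_le_pow_left₀ hr0 hA' 2
      have h8 : ((2 : ℝ) ^ (l + 1)) ^ 2 = 4 * ((2 : ℝ) ^ l) ^ 2 := by ring
      refine (pow_le_pow_iff_left₀ (by positivity) hm0 (two_ne_zero)).1 ?_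
      nlinarith [sq_nonneg ((2 : ℝ) ^ l)]
    have hex : ∃ j : ℕ, r ≤ 2 ^ j := ⟨l, hA'⟩
    classical
    set j := Nat.find hex with hj
    have hj1 : r ≤ 2 ^ j := Nat.find_spec hex
    have hjl : j ≤ l := Nat.find_min' hex hA'
    refine ⟨l + 1, (e, (2 : ℝ) ^ j, th ε (l + 1) j), mem_tT.2 ⟨j, by omega, rfl⟩,
      ⟨hk1, hk2, hj1⟩, ?_⟩
    show (W e ε ξ)⁻¹ ≤ th ε (l + 1) j
    refine le_min ?_ ?_
    · rw [Real.rpow_neg (by norm_num)]
      refine inv_anti₀ (by positivity) (le_trans ?_ (W_m e ε ξ))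
      rw [show ((l + 1 : ℕ) : ℝ) - 1 = l by push_cast; ring, Real.rpow_mul (by norm_num),
        Real.rpow_natCast]
      exact Real.rpow_le_rpow (by positivity) hmm (by linarith)
    · rcases Nat.eq_zero_or_pos j with h0 | h0
      · refine (inv_le_one_of_one_le₀ hW).trans ?_
        rw [h0]
        refine Real.one_le_rpow (by norm_num) ?_
        push_cast
        linarith
      · rw [Real.rpow_neg (by norm_num)]
        refine inv_anti₀ (by positivity) (le_trans ?_ (W_r e ε ξ))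
        have h9 : (2 : ℝ) ^ (j - 1) < r := not_le.1 (Nat.find_min hex (show j - 1 < j by omega))
        rw [show (j : ℝ) - 1 = ((j - 1 : ℕ) : ℝ) by push_cast [Nat.cast_sub h0]; ring,
          Real.rpow_mul (by norm_num), Real.rpow_natCast]
        exact Real.rpow_le_rpow (by positivity) h9.le (by linarith)

/-- Row Z1 -/
theorem stAni (hn : 1 ≤ n) (h : StWt n) : StAni n := by
  intro e ε he hε
  have hwm : Measurable fun ξ : Fin n → ℝ => ENNReal.ofReal (W e ε ξ) :=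
    (W_meas e ε).ennreal_ofReal
  have key := h (fun ξ => ENNReal.ofReal (W e ε ξ))
    (fun ξ => ENNReal.ofReal (ph (1 + ε) (nrm ξ)))
    (fun ρ => ENNReal.ofReal (ph (1 + ε) ρ) * ENNReal.ofReal (cC n * 1 ^ (n - 1))) 1
    (tT e ε) (fun _ p _ => ENNReal.ofReal p.2.2) hwm
    (fun ξ => by simpa using ENNReal.ofReal_le_ofReal (W_one e ε ξ))
    (((ph_meas (1 + ε)).comp nrm_meas).ennreal_ofReal)
    ((ph_meas (1 + ε)).ennreal_ofReal.mul_const _)
    ?_ one_pos ?_ ?_ ?_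
  · exact key
  · rw [lintegral_mul_const _ (ph_meas (1 + ε)).ennreal_ofReal]
    exact ENNReal.mul_lt_top (ph_int (by linarith)) ENNReal.ofReal_lt_top
  · intro ρ hρ ω
    have e1 : ∀ ω' : Metric.sphere (0 : EuclideanSpace ℝ (Fin n)) 1,
        nrm (ρ • ω'.1).ofLp = ρ := fun ω' => nrm_sph hρ ω'
    simp only [e1]
    rw [setLIntegral_const, mul_left_comm]
    exact mul_le_mul_right (cap_le hn hρ one_pos ω) _
  · refine ⟨fun k p hp => ?_, summ hε e⟩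
    obtain ⟨j, hj, rfl⟩ := mem_tT.1 hp
    refine ⟨he, ?_, th_nonneg _ _ _, measurable_const, Or.inl fun _ => le_rfl⟩
    show (2 : ℝ) ^ j ≤ 2 ^ k / 2
    rw [le_div_iff₀ (by norm_num), ← pow_succ]
    exact pow_le_pow_right₀ (by norm_num) hj
  · intro ξ
    have hW0 : 0 < W e ε ξ := by linarith [W_one e ε ξ]
    rw [← ENNReal.ofReal_inv_of_pos hW0]
    rcases ptw he hε ξ with h1 | ⟨k, p, hp, hξ, h1⟩
    · exact (ENNReal.ofReal_le_ofReal h1).trans le_self_add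
    · refine le_trans ?_ le_add_self
      refine le_trans ?_ (ENNReal.le_tsum k)
      refine le_trans ?_ (Finset.single_le_sum (f := fun p => (tube k p).indicator
        (fun _ => ENNReal.ofReal p.2.2) ξ) (fun _ _ => zero_le) hp)
      simp only [Set.indicator_of_mem hξ]
      exact ENNReal.ofReal_le_ofReal h1

end Vale.Agent.P076.R2.H599
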